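import Vale.Agent.P154.D6.K3.Data
import Vale.Agent.P154.ApxLemma

set_option maxRecDepth 100000

namespace Vale.Agent.P154.D6.K3

open PolyR Cert InT OutT

/-- The quotient polynomial for `j = 1`. -/
noncomputable def S1 (u : ℝ) : ℝ :=
  (69 / 16777216 : ℝ) * u ^ 0 + (-1353 / 16777216 : ℝ) * u ^ 1 + (-6499 / 8388608 : ℝ) * u ^ 2 + (1297 / 262144 : ℝ) * u ^ 3 + (305253 / 16777216 : ℝ) * u ^ 4 + (-1543455 / 16777216 : ℝ) * u ^ 5 + (-543213 / 8388608 : ℝ) * u ^ 6 + (9188195 / 16777216 : ℝ) * u ^ 7 + (-8256719 / 16777216 : ℝ) * u ^ 8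

/-- Certificate polynomial. -/
def lpu1 : List ITm := [⟨(-53954124450683593750000000000000000000000000000000000),0,0⟩,⟨(-1340147084398269653320312500000000000000000000000000000),1,0⟩,⟨(-7203243181846372558593750000000000000000000000000000000),2,0⟩,⟨27722808925317188164068750000000000000000000000000000000,3,0⟩,⟨61438833278425145567998397389570312500000000000000000000,4,0⟩,⟨(-187215899304241353870490896570380760703125000000000000000),5,0⟩,⟨(-79417213376560200997245227044773425845684462500000000000),6,0⟩,⟨404771974078787324106179305736866508651607141848962500000,7,0⟩,⟨(-219206522879305877184558943187531755142950381454373275439),8,0⟩]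

/-- Certificate tree. -/
def tpu1 : OutT := (A (A (A (A (O l) (O l)) (O l)) (A (A (O l) (A (O l) (O l))) (A (A (O l) (A (O l) (O l))) (A (A (O l) (A (O l) (O l))) (A (A (O l) (A (O l) (O l))) (A (A (O l) (O l)) (A (O l) (O l)))))))) (A (A (A (A (A (A (A (O l) (O l)) (A (O l) (O l))) (A (A (O l) (O l)) (A (O l) (O l)))) (A (A (A (O l) (O l)) (O l)) (A (O l) (O l)))) (A (A (A (O l) (O l)) (A (O l) (O l))) (A (A (O l) (O l)) (O l)))) (A (A (A (O l) (O l)) (A (O l) (O l))) (A (A (O l) (O l)) (A (O l) (O l))))) (A (A (A (A (O l) (O l)) (A (O l) (O l))) (A (A (A (O l) (O l)) (A (O l) (O l))) (A (A (O l) (O l)) (A (O l) (O l))))) (A (A (A (A (O l) (A (O l) (O l))) (A (A (O l) (O l)) (A (O l) (O l)))) (A (A (A (O l) (A (O l) (O l))) (A (A (O l) (O l)) (A (O l) (O l)))) (A (A (A (O l) (O l)) (A (O l) (A (O l) (O l)))) (A (A (A (O l) (O l)) (A (O l) (O l))) (A (A (O l) (O l)) (A (O l) (O l))))))) (A (A (A (A (A (A (O l) (O l)) (A (O l) (O l))) (A (A (O l) (O l)) (A (O l) (O l)))) (A (A (A (O l) (O l)) (A (O l) (O l))) (A (O l) (O l)))) (A (A (A (O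 l) (O l)) (A (O l) (O l))) (A (A (O l) (O l)) (O l)))) (A (A (A (O l) (O l)) (A (O l) (O l))) (A (A (O l) (O l)) (O l))))))))

theorem hpu1 (x : ℝ) (h0 : 0 ≤ x) (h1 : x ≤ 1) : evalIL lpu1 x 0 ≤ 0 :=
  uni_le 8 65536 lpu1 (by norm_num) (by norm_num) (by decide +kernel)
    (chkOut_sound (uniPb 8 65536 lpu1) tpu1 0 32768 0 32768 (by decide +kernel)) x h0 h1

/-- Certificate polynomial. -/
def lpl1 : List ITm := [⟨(-264525413513183593750000000000000000000000000000000000),0,0⟩,⟨1148215136060714721679687500000000000000000000000000000,1,0⟩,⟨7203243181846372558593750000000000000000000000000000000,2,0⟩,⟨(-27722808925317188164068750000000000000000000000000000000),3,0⟩,⟨(-61438833278425145567998397389570312500000000000000000000),4,0⟩,⟨187215899304241353870490896570380760703125000000000000000,5,0⟩,⟨79417213376560200997245227044773425845684462500000000000,6,0⟩,⟨(-404771974078787324106179305736866508651607141848962500000),7,0⟩,⟨219206522879305877184558943187531755142950381454373275439,8,0⟩]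

/-- Certificate tree. -/
def tpl1 : OutT := (A (A (A (A (O l) (O l)) (A (A (O l) (A (O l) (O l))) (A (A (O l) (O l)) (A (O l) (O l))))) (A (A (A (A (O l) (O l)) (O l)) (A (O l) (O l))) (A (A (O l) (O l)) (A (O l) (O l))))) (A (A (A (A (O l) (O l)) (A (A (O l) (O l)) (A (O l) (O l)))) (A (A (A (O l) (O l)) (A (A (O l) (O l)) (A (O l) (O l)))) (A (A (A (O l) (O l)) (A (O l) (A (O l) (O l)))) (A (A (A (O l) (O l)) (A (O l) (O l))) (A (A (O l) (A (O l) (O l))) (A (A (O l) (O l)) (A (O l) (O l)))))))) (A (A (A (A (A (A (A (O l) (O l)) (A (O l) (O l))) (A (A (O l) (O l)) (A (O l) (O l)))) (A (A (A (O l) (O l)) (A (O l) (O l))) (A (A (O l) (O l)) (A (O l) (O l))))) (A (A (A (A (O l) (O l)) (A (O l) (O l))) (A (O l) (O l))) (A (A (O l) (O l)) (A (O l) (O l))))) (A (A (A (A (O l) (O l)) (A (O l) (O l))) (A (A (O l) (O l)) (O l))) (A (A (O l) (O l)) (A (O l) (O l))))) (A (A (A (A (O l) (O l)) (A (O l) (O l))) (A (A (O l) (O l)) (A (O l) (O l)))) (A (A (A (O l) (O l)) (A (O l) (O l))) (A (A (O l) (O l)) (A (A (O l) (O l)) (A (O l) (A (O l) (A (O l)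 (O l)))))))))))

theorem hpl1 (x : ℝ) (h0 : 0 ≤ x) (h1 : x ≤ 1) : evalIL lpl1 x 0 ≤ 0 :=
  uni_le 8 65536 lpl1 (by norm_num) (by norm_num) (by decide +kernel)
    (chkOut_sound (uniPb 8 65536 lpl1) tpl1 0 32768 0 32768 (by decide +kernel)) x h0 h1

/-- Certificate polynomial. -/
def lnu1 : List ITm := [⟨(-13812255859375000000000000000000000000000000000000000000),0,0⟩,⟨171538826802978515625000000000000000000000000000000000000,1,0⟩,⟨(-461007563638167843750000000000000000000000000000000000000),2,0⟩,⟨(-887129885610150021250200000000000000000000000000000000000),3,0⟩,⟨983021332454802329087974358233125000000000000000000000000,4,0⟩,⟨1497727194433930830963927172563046085625000000000000000000,5,0⟩,⟨(-317668853506240803988980908179093703382737850000000000000),6,0⟩,⟨(-809543948157574648212358611473733017303214283697925000000),7,0⟩,⟨(-219206522879305877184558943187531755142950381454373275439),8,0⟩]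

/-- Certificate tree. -/
def tnu1 : OutT := (A (A (A (A (O l) (A (O l) (O l))) (A (A (O l) (O l)) (A (O l) (O l)))) (A (A (O l) (O l)) (O l))) (A (A (O l) (A (O l) (O l))) (A (A (A (O l) (O l)) (A (O l) (A (O l) (O l)))) (A (A (A (A (O l) (O l)) (A (O l) (A (O l) (O l)))) (A (A (O l) (O l)) (A (O l) (O l)))) (A (A (O l) (O l)) (O l))))))

theorem hnu1 (x : ℝ) (h0 : 0 ≤ x) (h1 : x ≤ 1) : evalIL lnu1 x 0 ≤ 0 :=
  uni_le 8 65536 lnu1 (by norm_num) (by norm_num) (by decide +kernel)
    (chkOut_sound (uniPb 8 65536 lnu1) tnu1 0 32768 0 32768 (by decide +kernel)) x h0 h1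

/-- Certificate polynomial. -/
def lnl1 : List ITm := [⟨(-67718505859375000000000000000000000000000000000000000000),0,0⟩,⟨(-146971537415771484375000000000000000000000000000000000000),1,0⟩,⟨461007563638167843750000000000000000000000000000000000000,2,0⟩,⟨887129885610150021250200000000000000000000000000000000000,3,0⟩,⟨(-983021332454802329087974358233125000000000000000000000000),4,0⟩,⟨(-1497727194433930830963927172563046085625000000000000000000),5,0⟩,⟨317668853506240803988980908179093703382737850000000000000,6,0⟩,⟨809543948157574648212358611473733017303214283697925000000,7,0⟩,⟨219206522879305877184558943187531755142950381454373275439,8,0⟩]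

/-- Certificate tree. -/
def tnl1 : OutT := (A (A (O l) (A (O l) (A (O l) (O l)))) (A (A (A (A (O l) (O l)) (A (A (O l) (O l)) (A (O l) (O l)))) (A (A (A (O l) (O l)) (O l)) (A (O l) (O l)))) (A (A (O l) (O l)) (A (O l) (A (O l) (A (O l) (A (O l) (O l))))))))

theorem hnl1 (x : ℝ) (h0 : 0 ≤ x) (h1 : x ≤ 1) : evalIL lnl1 x 0 ≤ 0 :=
  uni_le 8 65536 lnl1 (by norm_num) (by norm_num) (by decide +kernel)
    (chkOut_sound (uniPb 8 65536 lnl1) tnl1 0 32768 0 32768 (by decide +kernel)) x h0 h1

theorem apx1 (u : ℝ) (h0 : -(1506627 / 5000000 : ℝ) ≤ u) (h1 : u ≤ 2 * (1506627 / 5000000 : ℝ)) :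
    |((1 + u)⁻¹) ^ 1 - evalZ Ax.p1 (3 * u) / Ax.D1| ≤ Ax.e1 * |u| ^ Ax.m1 := by
  have hu : 0 < 1 + u := by norm_num at h0 ⊢; linarith
  refine apx_of_S 1 2 _ (S1 u) _ u hu ?_ ?_ ?_
  · simp only [Ax, evalZ_cons, evalZ_nil, S1]
    push_cast
    ring
  · rcases le_total 0 u with hs | hs
    · have hx := hpu1 (u / (2 * (1506627 / 5000000 : ℝ))) (by positivity) (by rw [div_le_one (by norm_num)]; exact h1)
      have e : evalIL lpu1 (u / (2 * (1506627 / 5000000 : ℝ))) 0 = 25600000000000000000000000000000000000000000000000000000000 * (S1 u - Ax.e1 * (1 + u) ^ 1) := by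
        simp only [lpu1, evalIL, List.map_cons, List.map_nil, List.sum_cons, List.sum_nil, S1, Ax]
        push_cast
        ring
      rw [e] at hx
      have := cmul_nonpos (by norm_num) hx
      simp only [Ax] at this ⊢
      linarith
    · have hx := hnu1 (-u / (1506627 / 5000000 : ℝ)) (by apply div_nonneg <;> [linarith; norm_num]) (by rw [div_le_one (by norm_num)]; linarith)
      have e : evalIL lnu1 (-u / (1506627 / 5000000 : ℝ)) 0 = 6553600000000000000000000000000000000000000000000000000000000 * (S1 u - Ax.e1 * (1 + u) ^ 1) := by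
        simp only [lnu1, evalIL, List.map_cons, List.map_nil, List.sum_cons, List.sum_nil, S1, Ax]
        push_cast
        ring
      rw [e] at hx
      have := cmul_nonpos (by norm_num) hx
      simp only [Ax] at this ⊢
      linarith
  · rcases le_total 0 u with hs | hs
    · have hx := hpl1 (u / (2 * (1506627 / 5000000 : ℝ))) (by positivity) (by rw [div_le_one (by norm_num)]; exact h1)
      have e : evalIL lpl1 (u / (2 * (1506627 / 5000000 : ℝ))) 0 = 25600000000000000000000000000000000000000000000000000000000 * (-S1 u - Ax.e1 * (1 + u) ^ 1) := by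
        simp only [lpl1, evalIL, List.map_cons, List.map_nil, List.sum_cons, List.sum_nil, S1, Ax]
        push_cast
        ring
      rw [e] at hx
      have := cmul_nonpos (by norm_num) hx
      simp only [Ax] at this ⊢
      linarith
    · have hx := hnl1 (-u / (1506627 / 5000000 : ℝ)) (by apply div_nonneg <;> [linarith; norm_num]) (by rw [div_le_one (by norm_num)]; linarith)
      have e : evalIL lnl1 (-u / (1506627 / 5000000 : ℝ)) 0 = 6553600000000000000000000000000000000000000000000000000000000 * (-S1 u - Ax.e1 * (1 + u) ^ 1) := by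
        simp only [lnl1, evalIL, List.map_cons, List.map_nil, List.sum_cons, List.sum_nil, S1, Ax]
        push_cast
        ring
      rw [e] at hx
      have := cmul_nonpos (by norm_num) hx
      simp only [Ax] at this ⊢
      linarith

/-- The quotient polynomial for `j = 2`. -/
noncomputable def S2 (u : ℝ) : ℝ :=
  (701 / 16777216 : ℝ) * u ^ 0 + (-14275 / 16777216 : ℝ) * u ^ 1 + (-148305 / 16777216 : ℝ) * u ^ 2 + (391813 / 8388608 : ℝ) * u ^ 3 + (124583 / 524288 : ℝ) * u ^ 4 + (-3437323 / 4194304 : ℝ) * u ^ 5 + (-1624259 / 1048576 : ℝ) * u ^ 6 + (21996583 / 4194304 : ℝ) * u ^ 7 + (38327 / 8388608 : ℝ) * u ^ 8 + (-80301613 / 16777216 : ℝ) * u ^ 9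

/-- Certificate polynomial. -/
def lpu2 : List ITm := [⟨(-1552700996398925781250000000000000000000000000000000000000000),0,0⟩,⟨(-37911804231548309326171875000000000000000000000000000000000000),1,0⟩,⟨(-207004615831389732227325439453125000000000000000000000000000000),2,0⟩,⟨654283739727213247285097167968750000000000000000000000000000000,3,0⟩,⟨2006003981307581556360905699071875000000000000000000000000000000,4,0⟩,⟨(-4169357167161678203836052104350246087656250000000000000000000000),5,0⟩,⟨(-4749301787026389114825474914426445607549362750000000000000000000),6,0⟩,⟨9690260517868736910839913510241522211354128399618725000000000000,7,0⟩,⟨5087691855805651345802485597213935450245950764463320435000000,8,0⟩,⟨(-3212003306498355228722659294436303212913589823943895003289992231),9,0⟩]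

/-- Certificate tree. -/
def tpu2 : OutT := (A (A (A (A (O l) (O l)) (O l)) (A (A (O l) (A (O l) (O l))) (A (A (O l) (A (O l) (O l))) (A (A (O l) (A (O l) (O l))) (A (A (O l) (O l)) (A (A (O l) (O l)) (A (O l) (O l)))))))) (A (A (A (A (A (A (A (O l) (O l)) (A (O l) (O l))) (A (A (O l) (O l)) (A (O l) (O l)))) (A (A (O l) (O l)) (A (O l) (O l)))) (A (A (A (O l) (O l)) (O l)) (A (O l) (O l)))) (A (A (A (O l) (O l)) (A (O l) (O l))) (A (A (O l) (O l)) (A (O l) (O l))))) (A (A (A (A (O l) (O l)) (A (O l) (O l))) (A (A (O l) (O l)) (A (A (O l) (O l)) (A (O l) (O l))))) (A (A (A (A (O l) (O l)) (A (A (O l) (O l)) (A (O l) (O l)))) (A (A (A (O l) (O l)) (A (O l) (A (O l) (O l)))) (A (A (A (O l) (O l)) (A (O l) (O l))) (A (A (O l) (A (O l) (O l))) (A (A (O l) (O l)) (A (O l) (O l))))))) (A (A (A (A (A (A (O l) (O l)) (A (O l) (O l))) (A (A (O l) (O l)) (O l))) (A (A (O l) (O l)) (A (O l) (O l)))) (A (A (A (O l) (O l)) (O l)) (A (O l) (O l)))) (A (A (A (O l) (O l)) (O l)) (A (O l) (O l))))))))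

theorem hpu2 (x : ℝ) (h0 : 0 ≤ x) (h1 : x ≤ 1) : evalIL lpu2 x 0 ≤ 0 :=
  uni_le 9 65536 lpu2 (by norm_num) (by norm_num) (by decide +kernel)
    (chkOut_sound (uniPb 9 65536 lpu2) tpu2 0 32768 0 32768 (by decide +kernel)) x h0 h1

/-- Certificate polynomial. -/
def lpl2 : List ITm := [⟨(-6900906562805175781250000000000000000000000000000000000000000),0,0⟩,⟨27722657514667510986328125000000000000000000000000000000000000,1,0⟩,⟨203934367121266938915252685546875000000000000000000000000000000,2,0⟩,⟨(-654283739727213247285097167968750000000000000000000000000000000),3,0⟩,⟨(-2006003981307581556360905699071875000000000000000000000000000000),4,0⟩,⟨4169357167161678203836052104350246087656250000000000000000000000,5,0⟩,⟨4749301787026389114825474914426445607549362750000000000000000000,6,0⟩,⟨(-9690260517868736910839913510241522211354128399618725000000000000),7,0⟩,⟨(-5087691855805651345802485597213935450245950764463320435000000),8,0⟩,⟨3212003306498355228722659294436303212913589823943895003289992231,9,0⟩]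

/-- Certificate tree. -/
def tpl2 : OutT := (A (A (A (A (O l) (O l)) (A (A (O l) (A (O l) (O l))) (A (A (O l) (A (O l) (O l))) (A (A (O l) (O l)) (O l))))) (A (A (A (A (O l) (O l)) (O l)) (A (O l) (O l))) (A (A (O l) (O l)) (A (O l) (O l))))) (A (A (A (A (O l) (O l)) (A (O l) (A (O l) (O l)))) (A (A (A (O l) (O l)) (A (O l) (A (O l) (O l)))) (A (A (A (O l) (O l)) (A (O l) (O l))) (A (A (A (O l) (O l)) (A (O l) (O l))) (A (A (O l) (O l)) (A (A (O l) (O l)) (A (O l) (O l)))))))) (A (A (A (A (A (A (A (O l) (O l)) (A (O l) (O l))) (A (A (O l) (O l)) (A (O l) (O l)))) (A (A (A (O l) (O l)) (A (O l) (O l))) (A (A (O l) (O l)) (A (O l) (O l))))) (A (A (A (O l) (O l)) (A (O l) (O l))) (A (A (O l) (O l)) (A (O l) (O l))))) (A (A (A (O l) (O l)) (A (O l) (O l))) (A (A (O l) (O l)) (A (O l) (O l))))) (A (A (A (A (O l) (O l)) (A (O l) (O l))) (A (A (O l) (O l)) (O l))) (A (A (A (O l) (O l)) (A (O l) (O l))) (A (A (O l) (O l)) (A (A (O l) (O l)) (A (O l) (A (O l) (A (O l) (O l)))))))))))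

theorem hpl2 (x : ℝ) (h0 : 0 ≤ x) (h1 : x ≤ 1) : evalIL lpl2 x 0 ≤ 0 :=
  uni_le 9 65536 lpl2 (by norm_num) (by norm_num) (by decide +kernel)
    (chkOut_sound (uniPb 9 65536 lpl2) tpl2 0 32768 0 32768 (by decide +kernel)) x h0 h1

/-- Certificate polynomial. -/
def lnu2 : List ITm := [⟨(-794982910156250000000000000000000000000000000000000000000000000),0,0⟩,⟨9705421883276367187500000000000000000000000000000000000000000000,1,0⟩,⟨(-26496590826417885725097656250000000000000000000000000000000000000),2,0⟩,⟨(-41874159342541647826246218750000000000000000000000000000000000000),3,0⟩,⟨64192127401842609803548982370300000000000000000000000000000000000,4,0⟩,⟨66709714674586851261376833669603937402500000000000000000000000000,5,0⟩,⟨(-37994414296211112918603799315411564860394902000000000000000000000),6,0⟩,⟨(-38761042071474947643359654040966088845416513598474900000000000000),7,0⟩,⟨10175383711611302691604971194427870900491901528926640870000000,8,0⟩,⟨3212003306498355228722659294436303212913589823943895003289992231,9,0⟩]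

/-- Certificate tree. -/
def tnu2 : OutT := (A (A (A (A (O l) (A (O l) (O l))) (A (A (O l) (O l)) (A (O l) (O l)))) (A (A (O l) (O l)) (O l))) (A (A (O l) (A (O l) (O l))) (A (A (A (O l) (O l)) (A (O l) (A (O l) (A (O l) (O l))))) (A (A (A (A (O l) (O l)) (A (A (O l) (O l)) (A (O l) (O l)))) (A (A (A (O l) (O l)) (O l)) (A (O l) (O l)))) (A (A (O l) (O l)) (O l))))))

theorem hnu2 (x : ℝ) (h0 : 0 ≤ x) (h1 : x ≤ 1) : evalIL lnu2 x 0 ≤ 0 :=
  uni_le 9 65536 lnu2 (by norm_num) (by norm_num) (by decide +kernel)
    (chkOut_sound (uniPb 9 65536 lnu2) tnu2 0 32768 0 32768 (by decide +kernel)) x h0 h1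

/-- Certificate polynomial. -/
def lnl2 : List ITm := [⟨(-3533264160156250000000000000000000000000000000000000000000000000),0,0⟩,⟨(-7097000323754882812500000000000000000000000000000000000000000000),1,0⟩,⟨26103598991522168181152343750000000000000000000000000000000000000,2,0⟩,⟨41874159342541647826246218750000000000000000000000000000000000000,3,0⟩,⟨(-64192127401842609803548982370300000000000000000000000000000000000),4,0⟩,⟨(-66709714674586851261376833669603937402500000000000000000000000000),5,0⟩,⟨37994414296211112918603799315411564860394902000000000000000000000,6,0⟩,⟨38761042071474947643359654040966088845416513598474900000000000000,7,0⟩,⟨(-10175383711611302691604971194427870900491901528926640870000000),8,0⟩,⟨(-3212003306498355228722659294436303212913589823943895003289992231),9,0⟩]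

/-- Certificate tree. -/
def tnl2 : OutT := (A (A (O l) (A (O l) (A (O l) (O l)))) (A (A (A (A (O l) (O l)) (A (A (O l) (O l)) (A (A (O l) (O l)) (A (O l) (O l))))) (A (A (A (O l) (O l)) (A (O l) (O l))) (A (O l) (O l)))) (A (A (A (O l) (O l)) (O l)) (A (O l) (A (O l) (A (O l) (A (O l) (A (O l) (O l)))))))))

theorem hnl2 (x : ℝ) (h0 : 0 ≤ x) (h1 : x ≤ 1) : evalIL lnl2 x 0 ≤ 0 :=
  uni_le 9 65536 lnl2 (by norm_num) (by norm_num) (by decide +kernel)
    (chkOut_sound (uniPb 9 65536 lnl2) tnl2 0 32768 0 32768 (by decide +kernel)) x h0 h1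

theorem apx2 (u : ℝ) (h0 : -(1506627 / 5000000 : ℝ) ≤ u) (h1 : u ≤ 2 * (1506627 / 5000000 : ℝ)) :
    |((1 + u)⁻¹) ^ 2 - evalZ Ax.p2 (3 * u) / Ax.D2| ≤ Ax.e2 * |u| ^ Ax.m2 := by
  have hu : 0 < 1 + u := by norm_num at h0 ⊢; linarith
  refine apx_of_S 2 2 _ (S2 u) _ u hu ?_ ?_ ?_
  · simp only [Ax, evalZ_cons, evalZ_nil, S2]
    push_cast
    ring
  · rcases le_total 0 u with hs | hs
    · have hx := hpu2 (u / (2 * (1506627 / 5000000 : ℝ))) (by positivity) (by rw [div_le_one (by norm_num)]; exact h1)
      have e : evalIL lpu2 (u / (2 * (1506627 / 5000000 : ℝ))) 0 = 64000000000000000000000000000000000000000000000000000000000000000 * (S2 u - Ax.e2 * (1 + u) ^ 2) := by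
        simp only [lpu2, evalIL, List.map_cons, List.map_nil, List.sum_cons, List.sum_nil, S2, Ax]
        push_cast
        ring
      rw [e] at hx
      have := cmul_nonpos (by norm_num) hx
      simp only [Ax] at this ⊢
      linarith
    · have hx := hnu2 (-u / (1506627 / 5000000 : ℝ)) (by apply div_nonneg <;> [linarith; norm_num]) (by rw [div_le_one (by norm_num)]; linarith)
      have e : evalIL lnu2 (-u / (1506627 / 5000000 : ℝ)) 0 = 32768000000000000000000000000000000000000000000000000000000000000000 * (S2 u - Ax.e2 * (1 + u) ^ 2) := by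
        simp only [lnu2, evalIL, List.map_cons, List.map_nil, List.sum_cons, List.sum_nil, S2, Ax]
        push_cast
        ring
      rw [e] at hx
      have := cmul_nonpos (by norm_num) hx
      simp only [Ax] at this ⊢
      linarith
  · rcases le_total 0 u with hs | hs
    · have hx := hpl2 (u / (2 * (1506627 / 5000000 : ℝ))) (by positivity) (by rw [div_le_one (by norm_num)]; exact h1)
      have e : evalIL lpl2 (u / (2 * (1506627 / 5000000 : ℝ))) 0 = 64000000000000000000000000000000000000000000000000000000000000000 * (-S2 u - Ax.e2 * (1 + u) ^ 2) := by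
        simp only [lpl2, evalIL, List.map_cons, List.map_nil, List.sum_cons, List.sum_nil, S2, Ax]
        push_cast
        ring
      rw [e] at hx
      have := cmul_nonpos (by norm_num) hx
      simp only [Ax] at this ⊢
      linarith
    · have hx := hnl2 (-u / (1506627 / 5000000 : ℝ)) (by apply div_nonneg <;> [linarith; norm_num]) (by rw [div_le_one (by norm_num)]; linarith)
      have e : evalIL lnl2 (-u / (1506627 / 5000000 : ℝ)) 0 = 32768000000000000000000000000000000000000000000000000000000000000000 * (-S2 u - Ax.e2 * (1 + u) ^ 2) := by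
        simp only [lnl2, evalIL, List.map_cons, List.map_nil, List.sum_cons, List.sum_nil, S2, Ax]
        push_cast
        ring
      rw [e] at hx
      have := cmul_nonpos (by norm_num) hx
      simp only [Ax] at this ⊢
      linarith

/-- The quotient polynomial for `j = 3`. -/
noncomputable def S3 (u : ℝ) : ℝ :=
  (12395 / 8388608 : ℝ) * u ^ 0 + (26129 / 2097152 : ℝ) * u ^ 1 + (-1492173 / 8388608 : ℝ) * u ^ 2 + (-12491665 / 16777216 : ℝ) * u ^ 3 + (29189051 / 8388608 : ℝ) * u ^ 4 + (34151847 / 4194304 : ℝ) * u ^ 5 + (-377979097 / 16777216 : ℝ) * u ^ 6 + (-163655233 / 8388608 : ℝ) * u ^ 7 + (496695603 / 16777216 : ℝ) * u ^ 8 + (393897979 / 16777216 : ℝ) * u ^ 9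

/-- Certificate polynomial. -/
def lpu3 : List ITm := [⟨(-6954669952392578125000000000000000000000000000000000000000000),0,0⟩,⟨297004847756767272949218750000000000000000000000000000000000000,1,0⟩,⟨(-4245282430062725090560913085937500000000000000000000000000000000),2,0⟩,⟨(-10452059817528217620011647796630859375000000000000000000000000000),3,0⟩,⟨29374670157941916601421266774158398437500000000000000000000000000,4,0⟩,⟨41425041539959747245354499577664839410781250000000000000000000000,5,0⟩,⟨(-69075221410221556136997021439894291168354481765625000000000000000),6,0⟩,⟨(-36047913507350409892282048334926024732428557852633737500000000000),7,0⟩,⟨32966761998037637253256543723836861591867208668346334370607500000,8,0⟩,⟨15755618893620725793116238494288100785694924126698003577887361873,9,0⟩]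

/-- Certificate tree. -/
def tpu3 : OutT := (A (A (A (A (A (A (O l) (O l)) (A (O l) (O l))) (A (O l) (O l))) (A (O l) (O l))) (A (A (O l) (O l)) (A (O l) (O l)))) (A (A (A (A (O l) (O l)) (A (O l) (A (O l) (O l)))) (A (A (A (O l) (A (O l) (O l))) (A (A (O l) (A (O l) (O l))) (A (A (O l) (O l)) (A (O l) (O l))))) (A (A (A (A (O l) (O l)) (A (O l) (O l))) (A (A (O l) (O l)) (O l))) (A (A (O l) (O l)) (A (O l) (O l)))))) (A (A (A (A (O l) (O l)) (A (O l) (O l))) (A (A (O l) (O l)) (A (O l) (O l)))) (A (A (O l) (O l)) (A (A (O l) (O l)) (A (O l) (A (O l) (A (O l) (A (O l) (O l))))))))))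

theorem hpu3 (x : ℝ) (h0 : 0 ≤ x) (h1 : x ≤ 1) : evalIL lpu3 x 0 ≤ 0 :=
  uni_le 9 65536 lpu3 (by norm_num) (by norm_num) (by decide +kernel)
    (chkOut_sound (uniPb 9 65536 lpu3) tpu3 0 32768 0 32768 (by decide +kernel)) x h0 h1

/-- Certificate polynomial. -/
def lpl3 : List ITm := [⟨(-196087360382080078125000000000000000000000000000000000000000000),0,0⟩,⟨(-664095173800849914550781250000000000000000000000000000000000000),1,0⟩,⟨4024055151399997851333618164062500000000000000000000000000000000,2,0⟩,⟨10407618885372245786377607574462890625000000000000000000000000000,3,0⟩,⟨(-29374670157941916601421266774158398437500000000000000000000000000),4,0⟩,⟨(-41425041539959747245354499577664839410781250000000000000000000000),5,0⟩,⟨69075221410221556136997021439894291168354481765625000000000000000,6,0⟩,⟨36047913507350409892282048334926024732428557852633737500000000000,7,0⟩,⟨(-32966761998037637253256543723836861591867208668346334370607500000),8,0⟩,⟨(-15755618893620725793116238494288100785694924126698003577887361873),9,0⟩]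

/-- Certificate tree. -/
def tpl3 : OutT := (A (A (A (O l) (A (O l) (O l))) (A (A (A (O l) (O l)) (A (A (O l) (O l)) (A (A (O l) (O l)) (A (O l) (O l))))) (A (A (A (A (O l) (O l)) (O l)) (A (O l) (O l))) (A (O l) (O l))))) (A (A (A (A (O l) (O l)) (A (O l) (O l))) (A (A (O l) (O l)) (A (O l) (O l)))) (A (A (A (O l) (O l)) (A (A (O l) (O l)) (A (O l) (A (O l) (O l))))) (A (A (A (A (O l) (O l)) (A (A (O l) (O l)) (A (O l) (O l)))) (A (A (A (O l) (A (O l) (O l))) (A (A (O l) (O l)) (A (O l) (O l)))) (A (A (A (O l) (O l)) (O l)) (A (O l) (O l))))) (A (A (A (A (O l) (O l)) (O l)) (A (O l) (O l))) (A (O l) (O l)))))))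

theorem hpl3 (x : ℝ) (h0 : 0 ≤ x) (h1 : x ≤ 1) : evalIL lpl3 x 0 ≤ 0 :=
  uni_le 9 65536 lpl3 (by norm_num) (by norm_num) (by decide +kernel)
    (chkOut_sound (uniPb 9 65536 lpl3) tpl3 0 32768 0 32768 (by decide +kernel)) x h0 h1

/-- Certificate polynomial. -/
def lnu3 : List ITm := [⟨(-3560791015625000000000000000000000000000000000000000000000000000),0,0⟩,⟨(-76033241025732421875000000000000000000000000000000000000000000000),1,0⟩,⟨(-543396151048028811591796875000000000000000000000000000000000000000),2,0⟩,⟨668931828321805927680745458984375000000000000000000000000000000000,3,0⟩,⟨939989445054141331245480536773068750000000000000000000000000000000,4,0⟩,⟨(-662800664639355955925671993242637430572500000000000000000000000000),5,0⟩,⟨(-552601771281772449095976171519154329346835854125000000000000000000),6,0⟩,⟨144191654029401639569128193339704098929714231410534950000000000000,7,0⟩,⟨65933523996075274506513087447673723183734417336692668741215000000,8,0⟩,⟨(-15755618893620725793116238494288100785694924126698003577887361873),9,0⟩]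

/-- Certificate tree. -/
def tnu3 : OutT := (A (A (A (A (O l) (O l)) (O l)) (O l)) (A (A (O l) (A (O l) (O l))) (A (A (A (O l) (O l)) (A (A (O l) (O l)) (A (A (O l) (O l)) (A (O l) (O l))))) (A (A (A (A (O l) (O l)) (A (O l) (O l))) (A (O l) (O l))) (A (O l) (O l))))))

theorem hnu3 (x : ℝ) (h0 : 0 ≤ x) (h1 : x ≤ 1) : evalIL lnu3 x 0 ≤ 0 :=
  uni_le 9 65536 lnu3 (by norm_num) (by norm_num) (by decide +kernel)
    (chkOut_sound (uniPb 9 65536 lnu3) tnu3 0 32768 0 32768 (by decide +kernel)) x h0 h1

/-- Certificate polynomial. -/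
def lnl3 : List ITm := [⟨(-100396728515625000000000000000000000000000000000000000000000000000),0,0⟩,⟨170008364493017578125000000000000000000000000000000000000000000000,1,0⟩,⟨515079059379199724970703125000000000000000000000000000000000000000,2,0⟩,⟨(-666087608663823730328166884765625000000000000000000000000000000000),3,0⟩,⟨(-939989445054141331245480536773068750000000000000000000000000000000),4,0⟩,⟨662800664639355955925671993242637430572500000000000000000000000000,5,0⟩,⟨552601771281772449095976171519154329346835854125000000000000000000,6,0⟩,⟨(-144191654029401639569128193339704098929714231410534950000000000000),7,0⟩,⟨(-65933523996075274506513087447673723183734417336692668741215000000),8,0⟩,⟨15755618893620725793116238494288100785694924126698003577887361873,9,0⟩]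

/-- Certificate tree. -/
def tnl3 : OutT := (A (A (O l) (A (O l) (A (O l) (A (O l) (A (O l) (O l)))))) (A (A (A (A (A (O l) (O l)) (A (O l) (O l))) (A (O l) (O l))) (A (O l) (O l))) (A (A (O l) (O l)) (A (O l) (A (O l) (A (O l) (A (O l) (A (O l) (O l)))))))))

theorem hnl3 (x : ℝ) (h0 : 0 ≤ x) (h1 : x ≤ 1) : evalIL lnl3 x 0 ≤ 0 :=
  uni_le 9 65536 lnl3 (by norm_num) (by norm_num) (by decide +kernel)
    (chkOut_sound (uniPb 9 65536 lnl3) tnl3 0 32768 0 32768 (by decide +kernel)) x h0 h1

theorem apx3 (u : ℝ) (h0 : -(1506627 / 5000000 : ℝ) ≤ u) (h1 : u ≤ 2 * (1506627 / 5000000 : ℝ)) :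
    |((1 + u)⁻¹) ^ 3 - evalZ Ax.p3 (3 * u) / Ax.D3| ≤ Ax.e3 * |u| ^ Ax.m3 := by
  have hu : 0 < 1 + u := by norm_num at h0 ⊢; linarith
  refine apx_of_S 3 2 _ (S3 u) _ u hu ?_ ?_ ?_
  · simp only [Ax, evalZ_cons, evalZ_nil, S3]
    push_cast
    ring
  · rcases le_total 0 u with hs | hs
    · have hx := hpu3 (u / (2 * (1506627 / 5000000 : ℝ))) (by positivity) (by rw [div_le_one (by norm_num)]; exact h1)
      have e : evalIL lpu3 (u / (2 * (1506627 / 5000000 : ℝ))) 0 = 64000000000000000000000000000000000000000000000000000000000000000 * (S3 u - Ax.e3 * (1 + u) ^ 3) := by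
        simp only [lpu3, evalIL, List.map_cons, List.map_nil, List.sum_cons, List.sum_nil, S3, Ax]
        push_cast
        ring
      rw [e] at hx
      have := cmul_nonpos (by norm_num) hx
      simp only [Ax] at this ⊢
      linarith
    · have hx := hnu3 (-u / (1506627 / 5000000 : ℝ)) (by apply div_nonneg <;> [linarith; norm_num]) (by rw [div_le_one (by norm_num)]; linarith)
      have e : evalIL lnu3 (-u / (1506627 / 5000000 : ℝ)) 0 = 32768000000000000000000000000000000000000000000000000000000000000000 * (S3 u - Ax.e3 * (1 + u) ^ 3) := by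
        simp only [lnu3, evalIL, List.map_cons, List.map_nil, List.sum_cons, List.sum_nil, S3, Ax]
        push_cast
        ring
      rw [e] at hx
      have := cmul_nonpos (by norm_num) hx
      simp only [Ax] at this ⊢
      linarith
  · rcases le_total 0 u with hs | hs
    · have hx := hpl3 (u / (2 * (1506627 / 5000000 : ℝ))) (by positivity) (by rw [div_le_one (by norm_num)]; exact h1)
      have e : evalIL lpl3 (u / (2 * (1506627 / 5000000 : ℝ))) 0 = 64000000000000000000000000000000000000000000000000000000000000000 * (-S3 u - Ax.e3 * (1 + u) ^ 3) := by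
        simp only [lpl3, evalIL, List.map_cons, List.map_nil, List.sum_cons, List.sum_nil, S3, Ax]
        push_cast
        ring
      rw [e] at hx
      have := cmul_nonpos (by norm_num) hx
      simp only [Ax] at this ⊢
      linarith
    · have hx := hnl3 (-u / (1506627 / 5000000 : ℝ)) (by apply div_nonneg <;> [linarith; norm_num]) (by rw [div_le_one (by norm_num)]; linarith)
      have e : evalIL lnl3 (-u / (1506627 / 5000000 : ℝ)) 0 = 32768000000000000000000000000000000000000000000000000000000000000000 * (-S3 u - Ax.e3 * (1 + u) ^ 3) := by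
        simp only [lnl3, evalIL, List.map_cons, List.map_nil, List.sum_cons, List.sum_nil, S3, Ax]
        push_cast
        ring
      rw [e] at hx
      have := cmul_nonpos (by norm_num) hx
      simp only [Ax] at this ⊢
      linarith

/-- The quotient polynomial for `j = 4`. -/
noncomputable def S4 (u : ℝ) : ℝ :=
  (229 / 131072 : ℝ) * u ^ 0 + (2764539 / 8388608 : ℝ) * u ^ 1 + (15997595 / 16777216 : ℝ) * u ^ 2 + (-80719509 / 8388608 : ℝ) * u ^ 3 + (-379851735 / 16777216 : ℝ) * u ^ 4 + (534301277 / 8388608 : ℝ) * u ^ 5 + (1823156901 / 16777216 : ℝ) * u ^ 6 + (-607069639 / 8388608 : ℝ) * u ^ 7 + (-2945278201 / 16777216 : ℝ) * u ^ 8 + (-145965281 / 2097152 : ℝ) * u ^ 9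

/-- Certificate polynomial. -/
def lpu4 : List ITm := [⟨(-172095932066440582275390625000000000000000000000000000000000000),0,0⟩,⟨1140322530970394611358642578125000000000000000000000000000000000,1,0⟩,⟨2365011106117450375006198883056640625000000000000000000000000000,2,0⟩,⟨(-17011972476147197810282897993087768554687500000000000000000000000),3,0⟩,⟨(-23916249679756990181806140780938044166564941406250000000000000000),4,0⟩,⟨40505592191284960886943650225642050148818359375000000000000000000,5,0⟩,⟨41647463974095233502464364138696085637669808181640625000000000000,6,0⟩,⟨(-16714706763769079400450405983095032566129795104756120312500000000),7,0⟩,⟨(-24435560956228018435760647978400785371654641106617239709087812500),8,0⟩,⟨(-5838499971425997968413439403510571264292474017560657995621079747),9,0⟩]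

/-- Certificate tree. -/
def tpu4 : OutT := (A (A (A (A (O l) (O l)) (A (A (O l) (A (O l) (O l))) (A (A (O l) (O l)) (O l)))) (A (A (A (O l) (O l)) (O l)) (A (O l) (O l)))) (A (A (A (O l) (O l)) (A (O l) (O l))) (A (A (A (O l) (O l)) (A (A (O l) (O l)) (A (A (O l) (O l)) (A (O l) (O l))))) (A (A (A (A (A (O l) (O l)) (A (O l) (O l))) (A (A (O l) (O l)) (O l))) (A (A (O l) (O l)) (O l))) (A (A (O l) (O l)) (O l))))))

theorem hpu4 (x : ℝ) (h0 : 0 ≤ x) (h1 : x ≤ 1) : evalIL lpu4 x 0 ≤ 0 :=
  uni_le 9 65536 lpu4 (by norm_num) (by norm_num) (by decide +kernel)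
    (chkOut_sound (uniPb 9 65536 lpu4) tpu4 0 32768 0 32768 (by decide +kernel)) x h0 h1

/-- Certificate polynomial. -/
def lpl4 : List ITm := [⟨(-200050033628940582275390625000000000000000000000000000000000000),0,0⟩,⟨(-2037418786742770671844482421875000000000000000000000000000000000),1,0⟩,⟨(-3175964770444790951135158538818359375000000000000000000000000000),2,0⟩,⟨16686157893100662303565179033279418945312500000000000000000000000,3,0⟩,⟨23867161574975824916718181104612126731872558593750000000000000000,4,0⟩,⟨(-40505592191284960886943650225642050148818359375000000000000000000),5,0⟩,⟨(-41647463974095233502464364138696085637669808181640625000000000000),6,0⟩,⟨16714706763769079400450405983095032566129795104756120312500000000,7,0⟩,⟨24435560956228018435760647978400785371654641106617239709087812500,8,0⟩,⟨5838499971425997968413439403510571264292474017560657995621079747,9,0⟩]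

/-- Certificate tree. -/
def tpl4 : OutT := (A (A (A (O l) (O l)) (A (O l) (A (O l) (A (O l) (O l))))) (A (A (A (A (A (O l) (O l)) (A (O l) (O l))) (A (A (A (O l) (O l)) (A (O l) (O l))) (A (A (O l) (O l)) (O l)))) (A (A (A (O l) (O l)) (O l)) (A (O l) (O l)))) (A (A (A (O l) (O l)) (O l)) (A (O l) (A (O l) (A (O l) (A (O l) (A (O l) (O l)))))))))

theorem hpl4 (x : ℝ) (h0 : 0 ≤ x) (h1 : x ≤ 1) : evalIL lpl4 x 0 ≤ 0 :=
  uni_le 9 65536 lpl4 (by norm_num) (by norm_num) (by decide +kernel)
    (chkOut_sound (uniPb 9 65536 lpl4) tpl4 0 32768 0 32768 (by decide +kernel)) x h0 h1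

/-- Certificate polynomial. -/
def lnu4 : List ITm := [⟨(-88113117218017578125000000000000000000000000000000000000000000000),0,0⟩,⟨(-291922567928421020507812500000000000000000000000000000000000000000),1,0⟩,⟨302721421583033648000793457031250000000000000000000000000000000000,2,0⟩,⟨1088766238473420659858105471557617187500000000000000000000000000000,3,0⟩,⟨(-765319989752223685817796504990017413330078125000000000000000000000),4,0⟩,⟨(-648089475060559374191098403610272802381093750000000000000000000000),5,0⟩,⟨333179711792761868019714913109568685101358465453125000000000000000,6,0⟩,⟨66858827055076317601801623932380130264519180419024481250000000000,7,0⟩,⟨(-48871121912456036871521295956801570743309282213234479418175625000),8,0⟩,⟨5838499971425997968413439403510571264292474017560657995621079747,9,0⟩]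

/-- Certificate tree. -/
def tnu4 : OutT := (A (A (O l) (O l)) (A (A (O l) (A (O l) (A (O l) (O l)))) (A (A (A (O l) (A (O l) (O l))) (A (A (A (O l) (O l)) (A (O l) (O l))) (A (A (O l) (O l)) (O l)))) (A (A (A (O l) (O l)) (O l)) (A (O l) (O l))))))

theorem hnu4 (x : ℝ) (h0 : 0 ≤ x) (h1 : x ≤ 1) : evalIL lnu4 x 0 ≤ 0 :=
  uni_le 9 65536 lnu4 (by norm_num) (by norm_num) (by decide +kernel)
    (chkOut_sound (uniPb 9 65536 lnu4) tnu4 0 32768 0 32768 (by decide +kernel)) x h0 h1

/-- Certificate polynomial. -/
def lnl4 : List ITm := [⟨(-102425617218017578125000000000000000000000000000000000000000000000),0,0⟩,⟨521579209406149291992187500000000000000000000000000000000000000000,1,0⟩,⟨(-406523490616933241745300292968750000000000000000000000000000000000),2,0⟩,⟨(-1067914105158442387428171458129882812500000000000000000000000000000),3,0⟩,⟨763749170399226397334981795347588055419921875000000000000000000000,4,0⟩,⟨648089475060559374191098403610272802381093750000000000000000000000,5,0⟩,⟨(-333179711792761868019714913109568685101358465453125000000000000000),6,0⟩,⟨(-66858827055076317601801623932380130264519180419024481250000000000),7,0⟩,⟨48871121912456036871521295956801570743309282213234479418175625000,8,0⟩,⟨(-5838499971425997968413439403510571264292474017560657995621079747),9,0⟩]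

/-- Certificate tree. -/
def tnl4 : OutT := (A (A (A (O l) (O l)) (A (A (O l) (A (O l) (O l))) (A (A (O l) (O l)) (O l)))) (A (A (A (O l) (O l)) (O l)) (A (O l) (A (O l) (A (O l) (A (O l) (A (O l) (O l))))))))

theorem hnl4 (x : ℝ) (h0 : 0 ≤ x) (h1 : x ≤ 1) : evalIL lnl4 x 0 ≤ 0 :=
  uni_le 9 65536 lnl4 (by norm_num) (by norm_num) (by decide +kernel)
    (chkOut_sound (uniPb 9 65536 lnl4) tnl4 0 32768 0 32768 (by decide +kernel)) x h0 h1

theorem apx4 (u : ℝ) (h0 : -(1506627 / 5000000 : ℝ) ≤ u) (h1 : u ≤ 2 * (1506627 / 5000000 : ℝ)) :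
    |((1 + u)⁻¹) ^ 4 - evalZ Ax.p4 (3 * u) / Ax.D4| ≤ Ax.e4 * |u| ^ Ax.m4 := by
  have hu : 0 < 1 + u := by norm_num at h0 ⊢; linarith
  refine apx_of_S 4 2 _ (S4 u) _ u hu ?_ ?_ ?_
  · simp only [Ax, evalZ_cons, evalZ_nil, S4]
    push_cast
    ring
  · rcases le_total 0 u with hs | hs
    · have hx := hpu4 (u / (2 * (1506627 / 5000000 : ℝ))) (by positivity) (by rw [div_le_one (by norm_num)]; exact h1)
      have e : evalIL lpu4 (u / (2 * (1506627 / 5000000 : ℝ))) 0 = 8000000000000000000000000000000000000000000000000000000000000000 * (S4 u - Ax.e4 * (1 + u) ^ 4) := by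
        simp only [lpu4, evalIL, List.map_cons, List.map_nil, List.sum_cons, List.sum_nil, S4, Ax]
        push_cast
        ring
      rw [e] at hx
      have := cmul_nonpos (by norm_num) hx
      simp only [Ax] at this ⊢
      linarith
    · have hx := hnu4 (-u / (1506627 / 5000000 : ℝ)) (by apply div_nonneg <;> [linarith; norm_num]) (by rw [div_le_one (by norm_num)]; linarith)
      have e : evalIL lnu4 (-u / (1506627 / 5000000 : ℝ)) 0 = 4096000000000000000000000000000000000000000000000000000000000000000 * (S4 u - Ax.e4 * (1 + u) ^ 4) := by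
        simp only [lnu4, evalIL, List.map_cons, List.map_nil, List.sum_cons, List.sum_nil, S4, Ax]
        push_cast
        ring
      rw [e] at hx
      have := cmul_nonpos (by norm_num) hx
      simp only [Ax] at this ⊢
      linarith
  · rcases le_total 0 u with hs | hs
    · have hx := hpl4 (u / (2 * (1506627 / 5000000 : ℝ))) (by positivity) (by rw [div_le_one (by norm_num)]; exact h1)
      have e : evalIL lpl4 (u / (2 * (1506627 / 5000000 : ℝ))) 0 = 8000000000000000000000000000000000000000000000000000000000000000 * (-S4 u - Ax.e4 * (1 + u) ^ 4) := by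
        simp only [lpl4, evalIL, List.map_cons, List.map_nil, List.sum_cons, List.sum_nil, S4, Ax]
        push_cast
        ring
      rw [e] at hx
      have := cmul_nonpos (by norm_num) hx
      simp only [Ax] at this ⊢
      linarith
    · have hx := hnl4 (-u / (1506627 / 5000000 : ℝ)) (by apply div_nonneg <;> [linarith; norm_num]) (by rw [div_le_one (by norm_num)]; linarith)
      have e : evalIL lnl4 (-u / (1506627 / 5000000 : ℝ)) 0 = 4096000000000000000000000000000000000000000000000000000000000000000 * (-S4 u - Ax.e4 * (1 + u) ^ 4) := by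
        simp only [lnl4, evalIL, List.map_cons, List.map_nil, List.sum_cons, List.sum_nil, S4, Ax]
        push_cast
        ring
      rw [e] at hx
      have := cmul_nonpos (by norm_num) hx
      simp only [Ax] at this ⊢
      linarith

/-- The quotient polynomial for `j = 5`. -/
noncomputable def S5 (u : ℝ) : ℝ :=
  (138865 / 16777216 : ℝ) * u ^ 0 + (16857703 / 16777216 : ℝ) * u ^ 1 + (59526841 / 16777216 : ℝ) * u ^ 2 + (-452925529 / 16777216 : ℝ) * u ^ 3 + (-1551718899 / 16777216 : ℝ) * u ^ 4 + (2259047981 / 16777216 : ℝ) * u ^ 5 + (8341938013 / 16777216 : ℝ) * u ^ 6 + (1220395141 / 16777216 : ℝ) * u ^ 7 + (-6104517445 / 8388608 : ℝ) * u ^ 8 + (-181552611 / 262144 : ℝ) * u ^ 9 + (-1616809477 / 8388608 : ℝ) * u ^ 10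

/-- Certificate polynomial. -/
def lpu5 : List ITm := [⟨(-4926680326461791992187500000000000000000000000000000000000000000000000),0,0⟩,⟨31602761282519817352294921875000000000000000000000000000000000000000000,1,0⟩,⟨82791496138565397996139526367187500000000000000000000000000000000000000,2,0⟩,⟨(-484941856846204037945348617401123046875000000000000000000000000000000000),3,0⟩,⟨(-979677617669567053577877931167881195068359375000000000000000000000000000),4,0⟩,⟨855852353522883086123087320595539800893005371093750000000000000000000000,5,0⟩,⟨1905598814232572052427640227474107457716724061660156250000000000000000000,6,0⟩,⟨168008294331316570308277833947535843453221707906643929687500000000000000,7,0⟩,⟨(-1012925081814061339592160906559139521523023455471254783119031250000000000),8,0⟩,⟨(-580957283471164803606224935749002821641603786882880626925540516560000000),9,0⟩,⟨(-97435295580308103687702350395908935140851520355002792540598213315322573),10,0⟩]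

/-- Certificate tree. -/
def tpu5 : OutT := (A (A (A (A (O l) (O l)) (A (A (O l) (O l)) (A (A (O l) (O l)) (O l)))) (A (A (O l) (O l)) (A (O l) (O l)))) (A (A (O l) (A (O l) (O l))) (A (A (A (O l) (O l)) (A (A (O l) (O l)) (A (O l) (A (O l) (O l))))) (A (A (A (A (O l) (O l)) (A (O l) (O l))) (A (A (O l) (O l)) (O l))) (A (A (O l) (O l)) (O l))))))

theorem hpu5 (x : ℝ) (h0 : 0 ≤ x) (h1 : x ≤ 1) : evalIL lpu5 x 0 ≤ 0 :=
  uni_le 10 65536 lpu5 (by norm_num) (by norm_num) (by decide +kernel)
    (chkOut_sound (uniPb 10 65536 lpu5) tpu5 0 32768 0 32768 (by decide +kernel)) x h0 h1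

/-- Certificate polynomial. -/
def lpl5 : List ITm := [⟨(-6251000165939331054687500000000000000000000000000000000000000000000000),0,0⟩,⟨(-65283951736969470977783203125000000000000000000000000000000000000000000),1,0⟩,⟨(-123387488883218292630386352539062500000000000000000000000000000000000000),2,0⟩,⟨460476649341844775271704060211181640625000000000000000000000000000000000,3,0⟩,⟨972305629232232997009036915514799224853515625000000000000000000000000000,4,0⟩,⟨(-856740900468753109934778779226768275256115722656250000000000000000000000),5,0⟩,⟨(-1905598814232572052427640227474107457716724061660156250000000000000000000),6,0⟩,⟨(-168008294331316570308277833947535843453221707906643929687500000000000000),7,0⟩,⟨1012925081814061339592160906559139521523023455471254783119031250000000000,8,0⟩,⟨580957283471164803606224935749002821641603786882880626925540516560000000,9,0⟩,⟨97435295580308103687702350395908935140851520355002792540598213315322573,10,0⟩]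

/-- Certificate tree. -/
def tpl5 : OutT := (A (A (A (O l) (O l)) (A (O l) (A (O l) (A (O l) (O l))))) (A (A (A (A (O l) (A (O l) (O l))) (A (A (A (O l) (O l)) (A (O l) (O l))) (A (O l) (O l)))) (A (A (A (O l) (O l)) (O l)) (A (O l) (O l)))) (A (A (O l) (O l)) (A (O l) (A (O l) (A (O l) (A (O l) (A (O l) (O l)))))))))

theorem hpl5 (x : ℝ) (h0 : 0 ≤ x) (h1 : x ≤ 1) : evalIL lpl5 x 0 ≤ 0 :=
  uni_le 10 65536 lpl5 (by norm_num) (by norm_num) (by decide +kernel)
    (chkOut_sound (uniPb 10 65536 lpl5) tpl5 0 32768 0 32768 (by decide +kernel)) x h0 h1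

/-- Certificate polynomial. -/
def lnu5 : List ITm := [⟨(-5044920654296875000000000000000000000000000000000000000000000000000000000),0,0⟩,⟨(-16180613776650146484375000000000000000000000000000000000000000000000000000),1,0⟩,⟨21194623011472741887011718750000000000000000000000000000000000000000000000,2,0⟩,⟨62072557676314116857004623027343750000000000000000000000000000000000000000,3,0⟩,⟨(-62699367530852291428984187594744396484375000000000000000000000000000000000),4,0⟩,⟨(-27387275312732258755938794259057273628576171875000000000000000000000000000),5,0⟩,⟨30489581027721152838842243639585719323467584986562500000000000000000000000,6,0⟩,⟨(-1344066354650532562466222671580286747625773663253151437500000000000000000),7,0⟩,⟨(-4051700327256245358368643626236558086092093821885019132476125000000000000),8,0⟩,⟨1161914566942329607212449871498005643283207573765761253851081033120000000,9,0⟩,⟨(-97435295580308103687702350395908935140851520355002792540598213315322573),10,0⟩]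

/-- Certificate tree. -/
def tnu5 : OutT := (A (A (O l) (O l)) (A (A (O l) (A (O l) (A (O l) (O l)))) (A (A (A (O l) (A (O l) (O l))) (A (A (A (O l) (O l)) (A (O l) (O l))) (A (A (O l) (O l)) (A (O l) (O l))))) (A (A (A (O l) (O l)) (O l)) (A (O l) (O l))))))

theorem hnu5 (x : ℝ) (h0 : 0 ≤ x) (h1 : x ≤ 1) : evalIL lnu5 x 0 ≤ 0 :=
  uni_le 10 65536 lnu5 (by norm_num) (by norm_num) (by decide +kernel)
    (chkOut_sound (uniPb 10 65536 lnu5) tnu5 0 32768 0 32768 (by decide +kernel)) x h0 h1

/-- Certificate polynomial. -/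
def lnl5 : List ITm := [⟨(-6401024169921875000000000000000000000000000000000000000000000000000000000),0,0⟩,⟨33425383289328369140625000000000000000000000000000000000000000000000000000,1,0⟩,⟨(-31587197154103882913378906250000000000000000000000000000000000000000000000),2,0⟩,⟨(-58941011115756131234778119707031250000000000000000000000000000000000000000),3,0⟩,⟨62227560270862911808578362592947150390625000000000000000000000000000000000,4,0⟩,⟨27415708815000099517912920935256584808195703125000000000000000000000000000,5,0⟩,⟨(-30489581027721152838842243639585719323467584986562500000000000000000000000),6,0⟩,⟨1344066354650532562466222671580286747625773663253151437500000000000000000,7,0⟩,⟨4051700327256245358368643626236558086092093821885019132476125000000000000,8,0⟩,⟨(-1161914566942329607212449871498005643283207573765761253851081033120000000),9,0⟩,⟨97435295580308103687702350395908935140851520355002792540598213315322573,10,0⟩]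

/-- Certificate tree. -/
def tnl5 : OutT := (A (A (A (O l) (O l)) (A (A (O l) (A (O l) (O l))) (A (A (O l) (O l)) (A (O l) (O l))))) (A (A (A (O l) (O l)) (A (O l) (O l))) (A (A (O l) (O l)) (A (O l) (A (O l) (A (O l) (A (O l) (A (O l) (O l)))))))))

theorem hnl5 (x : ℝ) (h0 : 0 ≤ x) (h1 : x ≤ 1) : evalIL lnl5 x 0 ≤ 0 :=
  uni_le 10 65536 lnl5 (by norm_num) (by norm_num) (by decide +kernel)
    (chkOut_sound (uniPb 10 65536 lnl5) tnl5 0 32768 0 32768 (by decide +kernel)) x h0 h1

theorem apx5 (u : ℝ) (h0 : -(1506627 / 5000000 : ℝ) ≤ u) (h1 : u ≤ 2 * (1506627 / 5000000 : ℝ)) :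
    |((1 + u)⁻¹) ^ 5 - evalZ Ax.p5 (3 * u) / Ax.D5| ≤ Ax.e5 * |u| ^ Ax.m5 := by
  have hu : 0 < 1 + u := by norm_num at h0 ⊢; linarith
  refine apx_of_S 5 2 _ (S5 u) _ u hu ?_ ?_ ?_
  · simp only [Ax, evalZ_cons, evalZ_nil, S5]
    push_cast
    ring
  · rcases le_total 0 u with hs | hs
    · have hx := hpu5 (u / (2 * (1506627 / 5000000 : ℝ))) (by positivity) (by rw [div_le_one (by norm_num)]; exact h1)
      have e : evalIL lpu5 (u / (2 * (1506627 / 5000000 : ℝ))) 0 = 80000000000000000000000000000000000000000000000000000000000000000000000 * (S5 u - Ax.e5 * (1 + u) ^ 5) := by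
        simp only [lpu5, evalIL, List.map_cons, List.map_nil, List.sum_cons, List.sum_nil, S5, Ax]
        push_cast
        ring
      rw [e] at hx
      have := cmul_nonpos (by norm_num) hx
      simp only [Ax] at this ⊢
      linarith
    · have hx := hnu5 (-u / (1506627 / 5000000 : ℝ)) (by apply div_nonneg <;> [linarith; norm_num]) (by rw [div_le_one (by norm_num)]; linarith)
      have e : evalIL lnu5 (-u / (1506627 / 5000000 : ℝ)) 0 = 81920000000000000000000000000000000000000000000000000000000000000000000000 * (S5 u - Ax.e5 * (1 + u) ^ 5) := by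
        simp only [lnu5, evalIL, List.map_cons, List.map_nil, List.sum_cons, List.sum_nil, S5, Ax]
        push_cast
        ring
      rw [e] at hx
      have := cmul_nonpos (by norm_num) hx
      simp only [Ax] at this ⊢
      linarith
  · rcases le_total 0 u with hs | hs
    · have hx := hpl5 (u / (2 * (1506627 / 5000000 : ℝ))) (by positivity) (by rw [div_le_one (by norm_num)]; exact h1)
      have e : evalIL lpl5 (u / (2 * (1506627 / 5000000 : ℝ))) 0 = 80000000000000000000000000000000000000000000000000000000000000000000000 * (-S5 u - Ax.e5 * (1 + u) ^ 5) := by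
        simp only [lpl5, evalIL, List.map_cons, List.map_nil, List.sum_cons, List.sum_nil, S5, Ax]
        push_cast
        ring
      rw [e] at hx
      have := cmul_nonpos (by norm_num) hx
      simp only [Ax] at this ⊢
      linarith
    · have hx := hnl5 (-u / (1506627 / 5000000 : ℝ)) (by apply div_nonneg <;> [linarith; norm_num]) (by rw [div_le_one (by norm_num)]; linarith)
      have e : evalIL lnl5 (-u / (1506627 / 5000000 : ℝ)) 0 = 81920000000000000000000000000000000000000000000000000000000000000000000000 * (-S5 u - Ax.e5 * (1 + u) ^ 5) := by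
        simp only [lnl5, evalIL, List.map_cons, List.map_nil, List.sum_cons, List.sum_nil, S5, Ax]
        push_cast
        ring
      rw [e] at hx
      have := cmul_nonpos (by norm_num) hx
      simp only [Ax] at this ⊢
      linarith

theorem hAx : Ax.OK (-(1506627 / 5000000 : ℝ)) (2 * (1506627 / 5000000 : ℝ)) where
  e10 := by simp only [Ax]; norm_num
  e20 := by simp only [Ax]; norm_num
  e30 := by simp only [Ax]; norm_num
  e40 := by simp only [Ax]; norm_num
  e50 := by simp only [Ax]; norm_num
  h1 := fun u a b => by simpa using apx1 u a b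
  h2 := apx2
  h3 := apx3
  h4 := apx4
  h5 := apx5

end Vale.Agent.P154.D6.K3
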