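import Vale.Agent.P154.D6.K3.Data
import Vale.Agent.P154.Check2

namespace Vale.Agent.P154.D6.K3

open Cert

/-- Chart (0, 0). -/
def P00 : Pb := chartPb false false Nd w G []

/-- Chart (0, 1). -/
def P01 : Pb := chartPb false true Nd w G []

/-- Chart (1, 0). -/
def P10 : Pb := chartPb true false Nd w G []

/-- Chart (1, 1). -/
def P11 : Pb := chartPb true true Nd w G []

/-- The offset. -/
def KK : ℕ := 772103322247736428651791941524190166662432288223808740069966728315087660095197093551484618001698015194652854401843307157096133183997320086925557708514169730840749451738610692460887556999562135090788908685580234789131193097780962748024381086918485856402626253175196722230275782071039209488625822100242638638716536487936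

end Vale.Agent.P154.D6.K3
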