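import Vale.Agent.P154.D6.K3.Charts

set_option maxRecDepth 100000

namespace Vale.Agent.P154.D6.K3

open Cert InT OutT

/-- Certificate tree. -/
def tr10_r1 : OutT :=
(A (B (A (B (A (O (c (c (c l l) (c l (c l l))) (c (c (d l l) (d l (c l l))) (d (c k k) (c (d (c l l) (c l l)) (d (d k (c k k)) (c l (c l l)))))))) (O (c (c l (c l (c l l))) (c (c (d l (c l l)) (d (c l l) (d l l))) (d (c k k) (c (d (c l (d k l)) (c l (c l l))) (d (c k k) (c (d (c l k) l) (d (c k k) (c l l)))))))))) (A (O (c (c l (c l (c l l))) (c (c (d l l) (d l (c l l))) (d (c k k) (c (d (c l l) (c l l)) (d (d k (c k k)) (c l (c l l)))))))) s)) s) (A (B (A (O (c (c l (c l l)) (c (c (d l l) (d (c l l) (c l l))) (d (c k k) (c (d (c l l) (c l l)) (d (d k (c k k)) (c l (d l l)))))))) s) (A (O (c (c l (c l l)) (c (c (c l l) (d l (c l l))) (d (c k k) (c (d (c l l) (c l l)) (d (c k k) (c l (d l l)))))))) s)) s)) s)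

theorem s10_r1 : Sound P10 32768 16384 0 32768 :=
  chkOut2_sound P10 KK tr10_r1 32768 16384 0 32768 (by decide +kernel)

end Vale.Agent.P154.D6.K3
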